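import Mathlib
import Vale.Agent.P074.Defs
import Vale.Agent.P074.UE
import Vale.Agent.P074.LP

open scoped ENNReal NNReal
open MeasureTheory Vale.Agent.P074

namespace Vale.Agent.Results.P074.Main

/-- In every dimension `d ≥ 2` the admissible exponents are exactly those in `(0, 1/3]`; the
largest admissible exponent is `1/3`, and it is attained. -/
theorem result (d : ℕ) (hd : 2 ≤ d) :
    (∀ α : ℝ, Admissible d α ↔ 0 < α ∧ α ≤ 1 / 3) ∧
    IsGreatest {α : ℝ | Admissible d α} (1 / 3) ∧
    ¬ Admissible d (1 / 2) := by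
  obtain ⟨n, rfl⟩ : ∃ n, d = n + 2 := ⟨d - 2, by omega⟩
  refine ⟨fun α => ⟨fun h => ⟨h.1, admissible_le h⟩, fun h => admissible_of_le h.1 h.2⟩,
    ⟨admissible_of_le (by norm_num) le_rfl, fun α h => admissible_le h⟩, fun h => ?_⟩
  have := admissible_le h
  norm_num at this

end Vale.Agent.Results.P074.Main
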