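import Mathlib
import Vale.Agent.P074.Defs
import Vale.Agent.P074.UE

open scoped ENNReal NNReal
open MeasureTheory Vale.Agent.P074

namespace Vale.Agent.Results.P074.Upper

/-- In every dimension `d ≥ 2`: no exponent above `1/3` holds for the uniform source on the unit
cube and targets in the closed unit ball; hence every admissible exponent is at most `1/3`, and in
particular `1/2` is not admissible. -/
theorem result (d : ℕ) (hd : 2 ≤ d) :
    (∀ α : ℝ, 1 / 3 < α → ¬ StabilityBound (cube d) (Metric.closedBall 0 1) α) ∧
    (∀ α : ℝ, Admissible d α → α ≤ 1 / 3) ∧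
    ¬ Admissible d (1 / 2) := by
  obtain ⟨n, rfl⟩ : ∃ n, d = n + 2 := ⟨d - 2, by omega⟩
  refine ⟨fun α hα => not_stability hα, fun α hα => admissible_le hα, fun h => ?_⟩
  have := admissible_le h
  norm_num at this

end Vale.Agent.Results.P074.Upper
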